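import Vale.Agent.P065.Family
import Vale.Agent.P065.Final

/-!
# P065: new lower bounds for halving lines and k-sets

For every `ε > 0`: `h(n) ≥ n exp((log n)^(1-ε))` for all large even `n`, and
`e_k(n) ≥ n exp((log k)^(1-ε))` for all large `k` and all `n ≥ 2k`.
-/

namespace Vale.Agent.Results.P065.HalvingAndKSets

open Vale.Agent.P065

theorem result :
    (∀ ε : ℝ, 0 < ε → ∃ n0 : ℕ, ∀ n : ℕ, n0 ≤ n → Even n → ∃ P : Finset (ℝ × ℝ), P.card = n ∧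
      (∀ a ∈ P, ∀ b ∈ P, ∀ c ∈ P, a ≠ b → b ≠ c → a ≠ c → ¬ Collinear ℝ {a, b, c}) ∧
      (n : ℝ) * Real.exp ((Real.log n) ^ (1 - ε)) ≤
        {s : Finset (ℝ × ℝ) | IsHalvingPair P s}.ncard) ∧
    (∀ ε : ℝ, 0 < ε → ∃ k0 : ℕ, ∀ k : ℕ, k0 ≤ k → ∀ n : ℕ, 2 * k ≤ n →
      ∃ P : Finset (ℝ × ℝ), P.card = n ∧
      (∀ a ∈ P, ∀ b ∈ P, ∀ c ∈ P, a ≠ b → b ≠ c → a ≠ c → ¬ Collinear ℝ {a, b, c}) ∧
      (n : ℝ) * Real.exp ((Real.log k) ^ (1 - ε)) ≤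
        {S : Finset (ℝ × ℝ) | IsKSet P S k}.ncard) := by
  obtain ⟨C, B0, c0, hC, hB0, hc0, H⟩ := good_family
  refine final_of_good C hC 1 fun J hJ => ⟨B0 * J, c0, ?_, hc0, fun j => H J hJ j⟩
  have : (0 : ℝ) < J := by exact_mod_cast hJ
  positivity

end Vale.Agent.Results.P065.HalvingAndKSets
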