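import Vale.Agent.P065.Family
import Vale.Agent.P065.KSets2

/-!
# P065 : a lower bound `n ^ (1 + exp (-C √(log log n)))` for halving lines and for `k`-sets

In particular `h(n) ≥ n exp ((log n) ^ (1 - ε))` for every `ε > 0` and all large even `n`.
-/

namespace Vale.Agent.Results.P065.Strong

/-- orientation determinant: positive iff `c` is on the left of the directed line from `a` to `b`,
zero iff `a`, `b`, `c` are collinear -/
def side (a b c : ℝ × ℝ) : ℝ := (b.1 - a.1) * (c.2 - a.2) - (c.1 - a.1) * (b.2 - a.2)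

/-- no three points of `P` are collinear -/
def NoThreeCollinear (P : Finset (ℝ × ℝ)) : Prop :=
  ∀ a ∈ P, ∀ b ∈ P, ∀ c ∈ P, a ≠ b → b ≠ c → a ≠ c → ¬ Collinear ℝ {a, b, c}

/-- the unordered pairs `{a, b}` of points of `P` whose line has exactly `(|P| - 2) / 2` points of `P`
in each of its open halfplanes, i.e. the halving lines of `P` -/
def halvingPairs (P : Finset (ℝ × ℝ)) : Set (Finset (ℝ × ℝ)) :=
  {s | ∃ a ∈ P, ∃ b ∈ P, a ≠ b ∧ s = {a, b} ∧
    2 * {c | c ∈ P ∧ 0 < side a b c}.ncard + 2 = P.card ∧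
    2 * {c | c ∈ P ∧ side a b c < 0}.ncard + 2 = P.card}

/-- the `k`-sets of `P`: the `k`-element subsets `S` of `P` such that some line `u x + v y = c` has `S`
in one open halfplane and `P \ S` in the other one -/
def kSets (P : Finset (ℝ × ℝ)) (k : ℕ) : Set (Finset (ℝ × ℝ)) :=
  {S | S ⊆ P ∧ S.card = k ∧ ∃ u v c : ℝ, (u ≠ 0 ∨ v ≠ 0) ∧ (∀ x ∈ S, u * x.1 + v * x.2 < c) ∧
    ∀ x ∈ P, x ∉ S → c < u * x.1 + v * x.2}

/-- There is `C > 0` such that for all large even `n` some `n` points in the plane, no three collinear,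
have at least `n ^ (1 + exp (-C √(log log n)))` halving lines, and for all large `k` and all `n ≥ 2 k`
some `n` points in the plane, no three collinear, have at least
`n * k ^ (exp (-C √(log log k)))` `k`-sets. -/
theorem result : ∃ C : ℝ, 0 < C ∧
    (∃ n₀ : ℕ, ∀ n : ℕ, n₀ ≤ n → Even n →
      ∃ P : Finset (ℝ × ℝ), P.card = n ∧ NoThreeCollinear P ∧
        (n : ℝ) ^ (1 + Real.exp (-C * √(Real.log (Real.log n)))) ≤ (halvingPairs P).ncard) ∧
    (∃ k₀ : ℕ, ∀ k : ℕ, k₀ ≤ k → ∀ n : ℕ, 2 * k ≤ n →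
      ∃ P : Finset (ℝ × ℝ), P.card = n ∧ NoThreeCollinear P ∧
        (n : ℝ) * (k : ℝ) ^ Real.exp (-C * √(Real.log (Real.log k))) ≤ (kSets P k).ncard) := by
  obtain ⟨C0, B0, c0, hC0, hB0, hc0, H⟩ := Vale.Agent.P065.good_family
  obtain ⟨⟨C1, hC1, n0, hn0⟩, ⟨C2, hC2, k0, hk0⟩⟩ :=
    Vale.Agent.P065.final2_of_good C0 B0 c0 hC0 hB0 hc0 1 H
  refine ⟨max C1 C2, lt_max_of_lt_left hC1, ⟨max n0 1, fun n hn heven => ?_⟩,
    ⟨max k0 1, fun k hk n hn => ?_⟩⟩
  · obtain ⟨P, h1, h2, h3⟩ := hn0 n (le_trans (le_max_left _ _) hn) heven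
    refine ⟨P, h1, h2, le_trans ?_ h3⟩
    have hn1 : (1 : ℝ) ≤ n := by exact_mod_cast le_trans (le_max_right _ _) hn
    rw [Real.rpow_add (by linarith), Real.rpow_one, Real.rpow_def_of_pos (by linarith)]
    refine mul_le_mul_of_nonneg_left (Real.exp_le_exp.2 ?_) (by linarith)
    refine mul_le_mul_of_nonneg_left (Real.exp_le_exp.2 ?_) (Real.log_nonneg hn1)
    refine mul_le_mul_of_nonneg_right ?_ (Real.sqrt_nonneg _)
    exact neg_le_neg (le_max_left _ _)
  · obtain ⟨P, h1, h2, h3⟩ := hk0 k (le_trans (le_max_left _ _) hk) n hn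
    refine ⟨P, h1, h2, le_trans ?_ h3⟩
    have hk1 : (1 : ℝ) ≤ k := by exact_mod_cast le_trans (le_max_right _ _) hk
    rw [Real.rpow_def_of_pos (by linarith)]
    refine mul_le_mul_of_nonneg_left (Real.exp_le_exp.2 ?_) (Nat.cast_nonneg n)
    refine mul_le_mul_of_nonneg_left (Real.exp_le_exp.2 ?_) (Real.log_nonneg hk1)
    refine mul_le_mul_of_nonneg_right ?_ (Real.sqrt_nonneg _)
    exact neg_le_neg (le_max_right _ _)

end Vale.Agent.Results.P065.Strong
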